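import Vale.Agent.P265.Defs

/-!
P265: the flat model and the three interface statements. See `notes/P265.md`.
`R4 ∋ (s, t, x, y)`, the group `Γ` consists of the affine maps `act m n a b` with linear part `lin m n`;
`M = (R4 × (R3 \ 0)) / (Γ × positive scalings)`.
-/

namespace Vale.Agent.P265

open scoped ContDiff Quaternion

noncomputable section

abbrev R4 : Type := ℝ × ℝ × ℝ × ℝ
abbrev R3 : Type := ℝ × ℝ × ℝ
abbrev E6 : Type := R4 × ℝ × ℝ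
abbrev E7 : Type := R4 × R3

/-- the sign `(-1)^n` -/
def sg (n : ℤ) : ℝ := (-1) ^ n

/-- linear part of `act m n a b` -/
def lin (m n : ℤ) (u : R4) : R4 :=
  (u.1, u.2.1, sg n * (u.2.2.1 + 3 * m * u.2.2.2), sg n * u.2.2.2)

/-- the element `e₁^a e₂^b ι^n α^m` of `Γ` -/
def act (m n a b : ℤ) (u : R4) : R4 :=
  (u.1 + m, u.2.1 + n, sg n * (u.2.2.1 + 3 * m * u.2.2.2 + 3 * m * (m - 1) / 4) + a,
    sg n * (u.2.2.2 + m / 2) + b)

/-- the orbit relation of `Γ` -/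
def Rel4 (u u' : R4) : Prop := ∃ m n a b : ℤ, u' = act m n a b u

def dot (p q : R3) : ℝ := p.1 * q.1 + p.2.1 * q.2.1 + p.2.2 * q.2.2

def cross (p q : R3) : R3 :=
  (p.2.1 * q.2.2 - p.2.2 * q.2.1, p.2.2 * q.1 - p.1 * q.2.2, p.1 * q.2.1 - p.2.1 * q.1)

/-- the relation defining `M` on `R4 × (R3 \ 0)` -/
def Rel7 (z z' : E7) : Prop := Rel4 z.1 z'.1 ∧ ∃ c : ℝ, 0 < c ∧ z'.2 = c • z.2

/-- `ds ∧ dt + dx ∧ dy` -/
def om4 (u v : R4) : ℝ :=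
  u.1 * v.2.1 - u.2.1 * v.1 + (u.2.2.1 * v.2.2.2 - u.2.2.2 * v.2.2.1)

/-- the pull-back to `R4 × (R3 \ 0)` of the symplectic form of `M` -/
def om7 (c : ℝ) (z u v : E7) : ℝ :=
  c * om4 u.1 v.1 + dot z.2 (cross u.2 v.2) / √(dot z.2 z.2) ^ 3

/-- imaginary part of a quaternion -/
def imv (q : ℍ) : R3 := (q.imI, q.imJ, q.imK)

/-- Output of block U: a path of invariant maps to the unit quaternions. -/
structure IsPath (G : ℝ × R4 → ℍ) : Prop where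
  smooth : ContDiff ℝ ∞ G
  unit : ∀ w, Quaternion.normSq (G w) = 1
  inv : ∀ τ u u', Rel4 u u' → G (τ, u') = G (τ, u)
  start : ∀ τ u, τ ≤ 1 / 10 → G (τ, u) = 1
  stop : ∀ τ u, 9 / 10 ≤ τ → G (τ, u) = G (1, u)
  reg : ∀ u, imv (G (1, u)) = 0 →
    Function.Surjective (fderiv ℝ (fun u => imv (G (1, u))) u)
  crit : ∃ S : Finset R4, S.card ≤ 8 ∧ ∀ u, imv (G (1, u)) ≠ 0 →
    fderiv ℝ (fun u => (G (1, u)).re) u = 0 → (∃ u' ∈ S, Rel4 u u') ∧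
      Function.Injective (fderiv ℝ (fderiv ℝ fun u => (G (1, u)).re) u)

/-- Output of block S: a Hamiltonian flow upstairs. -/
structure IsFlow7 (c : ℝ) (H : ℝ × E7 → ℝ) (φ : ℝ × E7 → E7) : Prop where
  pos : 0 < c
  smoothH : ContDiffOn ℝ ∞ H {w | w.2.2 ≠ 0}
  smoothφ : ContDiffOn ℝ ∞ φ {w | w.2.2 ≠ 0}
  ne : ∀ τ z, z.2 ≠ 0 → (φ (τ, z)).2 ≠ 0
  invH : ∀ τ z z', z.2 ≠ 0 → Rel7 z z' → H (τ, z') = H (τ, z)
  invφ : ∀ τ z z', z.2 ≠ 0 → Rel7 z z' → Rel7 (φ (τ, z)) (φ (τ, z'))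
  periodic : ∀ τ z, z.2 ≠ 0 → H (τ + 1, z) = H (τ, z)
  zero : ∀ z, z.2 ≠ 0 → φ (0, z) = z
  ode : ∀ τ ∈ Set.Icc (0 : ℝ) 1, ∀ z b : E7, z.2 ≠ 0 →
    om7 c (φ (τ, z)) (fderiv ℝ φ (τ, z) (1, 0)) b = fderiv ℝ H (τ, φ (τ, z)) (0, b)
  fix : ∃ S : Finset E7, S.card ≤ 16 ∧ ∀ z : E7, z.2 ≠ 0 → Rel7 z (φ (1, z)) →
    (∃ z' ∈ S, Rel7 z z') ∧ φ (1, z) = z ∧ ∀ (v : E7) (r : ℝ),
      fderiv ℝ φ (1, z) (0, v) = v + (0, r • z.2) → ∃ r' : ℝ, v = (0, r' • z.2)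

/-- Input of block L: a function on `M × ℝ^k` read upstairs, with the penalty term
`(|y|² - 1)²` already added. -/
structure IsUp {k : ℕ} (f : E7 × Rk k → ℝ) (Q : QuadraticForm ℝ (Rk k)) (R : ℝ) : Prop where
  smooth : ContDiffOn ℝ ∞ f {w | w.1.2 ≠ 0}
  inv : ∀ z z' ζ, z.2 ≠ 0 → Rel7 z z' → f (z', ζ) = f (z, ζ)
  nondeg : ∀ v, (∀ w, QuadraticMap.polar Q v w = 0) → v = 0
  pos : 0 < R
  quad : ∀ z ζ, z.2 ≠ 0 → R ≤ ‖ζ‖ → f (z, ζ) = Q ζ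
  morse : ∀ w : E7 × Rk k, w.1.2 ≠ 0 →
    fderiv ℝ (fun w : E7 × Rk k => f w + (dot w.1.2 w.1.2 - 1) ^ 2) w = 0 →
    Function.Injective
      (fderiv ℝ (fderiv ℝ fun w : E7 × Rk k => f w + (dot w.1.2 w.1.2 - 1) ^ 2) w)

/-- Output of block L. -/
def LowerSM : Prop :=
  ∀ (k : ℕ) (f : E7 × Rk k → ℝ) (Q : QuadraticForm ℝ (Rk k)) (R : ℝ), IsUp f Q R →
    ∀ S : Finset (E7 × Rk k), (∀ w : E7 × Rk k, w.1.2 ≠ 0 →
      fderiv ℝ (fun w : E7 × Rk k => f w + (dot w.1.2 w.1.2 - 1) ^ 2) w = 0 →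
        ∃ w' ∈ S, Rel7 w.1 w'.1 ∧ w'.2 = w.2) → 17 ≤ S.card

theorem sg_zero : sg 0 = 1 := by simp [sg]

theorem sg_add (m n : ℤ) : sg (m + n) = sg m * sg n := zpow_add₀ (by norm_num) m n

theorem sg_one : sg 1 = -1 := by simp [sg]

theorem sg_cases (n : ℤ) : (sg n = 1 ∧ Even n) ∨ (sg n = -1 ∧ Odd n) := by
  rcases Int.even_or_odd n with h | h
  · exact Or.inl ⟨h.neg_one_zpow, h⟩
  · exact Or.inr ⟨h.neg_one_zpow, h⟩

theorem sg_sq (n : ℤ) : sg n * sg n = 1 := by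
  rcases sg_cases n with h | h <;> rw [h.1] <;> norm_num

theorem act_zero (u : R4) : act 0 0 0 0 u = u := by simp [act, sg_zero]

theorem act_add_lin (m n a b : ℤ) (u v : R4) :
    act m n a b (u + v) = act m n a b u + lin m n v := by
  simp only [act, lin, Prod.fst_add, Prod.snd_add, Prod.mk_add_mk, Prod.mk.injEq]
  refine ⟨by ring, by ring, by ring, by ring⟩

theorem act_act (m n a b m' n' a' b' : ℤ) : ∃ a'' b'' : ℤ, ∀ u,
    act m' n' a' b' (act m n a b u) = act (m + m') (n + n') a'' b'' u := by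
  obtain ⟨e, he⟩ : ∃ e : ℤ, m' * (m' - 1) = 2 * e := by
    have := Int.even_mul_pred_self m'
    obtain ⟨e, he⟩ := this
    exact ⟨e, by linarith⟩
  have he' : (m' : ℝ) * (m' - 1) = 2 * e := by exact_mod_cast he
  rcases sg_cases n with h | h <;> rcases sg_cases n' with h' | h'
  · refine ⟨a + 3 * m' * b + a', b + b', fun u => ?_⟩
    simp only [act, sg_add, h.1, h'.1, Prod.mk.injEq]
    push_cast
    refine ⟨by ring, by ring, by ring, by ring⟩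
  · refine ⟨-a - 3 * m' * b + a', -b + b', fun u => ?_⟩
    simp only [act, sg_add, h.1, h'.1, Prod.mk.injEq]
    push_cast
    refine ⟨by ring, by ring, by ring, by ring⟩
  · refine ⟨a + 3 * m' * b + a' + 3 * e, b + b' + m', fun u => ?_⟩
    simp only [act, sg_add, h.1, h'.1, Prod.mk.injEq]
    push_cast
    refine ⟨by ring, by ring, by linear_combination (3 / 2) * he', by ring⟩
  · refine ⟨-a - 3 * m' * b + a' - 3 * e, -b + b' - m', fun u => ?_⟩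
    simp only [act, sg_add, h.1, h'.1, Prod.mk.injEq]
    push_cast
    refine ⟨by ring, by ring, by linear_combination (-3 / 2) * he', by ring⟩

theorem act_trans (a b : ℤ) (u : R4) : act 0 0 a b u = (u.1, u.2.1, u.2.2.1 + a, u.2.2.2 + b) := by
  simp [act, sg_zero]

theorem Rel4.refl (u : R4) : Rel4 u u := ⟨0, 0, 0, 0, (act_zero u).symm⟩

theorem Rel4.trans {u v w : R4} (h : Rel4 u v) (h' : Rel4 v w) : Rel4 u w := by
  obtain ⟨m, n, a, b, rfl⟩ := h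
  obtain ⟨m', n', a', b', rfl⟩ := h'
  obtain ⟨a'', b'', h⟩ := act_act m n a b m' n' a' b'
  exact ⟨_, _, a'', b'', h u⟩

theorem act_inv (m n a b : ℤ) : ∃ a' b' : ℤ, ∀ u, act (-m) (-n) a' b' (act m n a b u) = u := by
  obtain ⟨a'', b'', h⟩ := act_act m n a b (-m) (-n) 0 0
  refine ⟨-a'', -b'', fun u => ?_⟩
  have h1 := h u
  rw [add_neg_cancel, add_neg_cancel, act_trans] at h1
  simp only [act, Prod.mk.injEq] at h1 ⊢
  obtain ⟨h1, h2, h3, h4⟩ := h1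
  push_cast at h1 h2 h3 h4 ⊢
  refine Prod.ext (by simp) (Prod.ext (by simp) (Prod.ext ?_ ?_))
  · simp only
    linarith
  · simp only
    linarith

theorem Rel4.symm {u v : R4} (h : Rel4 u v) : Rel4 v u := by
  obtain ⟨m, n, a, b, rfl⟩ := h
  obtain ⟨a', b', h⟩ := act_inv m n a b
  exact ⟨_, _, a', b', (h u).symm⟩

theorem Rel7.refl (z : E7) : Rel7 z z := ⟨Rel4.refl _, 1, one_pos, (one_smul _ _).symm⟩

theorem Rel7.symm {z z' : E7} (h : Rel7 z z') : Rel7 z' z := by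
  obtain ⟨h, c, hc, h'⟩ := h
  exact ⟨h.symm, c⁻¹, inv_pos.2 hc, by rw [h', smul_smul, inv_mul_cancel₀ hc.ne', one_smul]⟩

theorem Rel7.trans {z z' z'' : E7} (h : Rel7 z z') (h' : Rel7 z' z'') : Rel7 z z'' := by
  obtain ⟨h, c, hc, h1⟩ := h
  obtain ⟨h', c', hc', h2⟩ := h'
  exact ⟨h.trans h', c' * c, mul_pos hc' hc, by rw [h2, h1, smul_smul]⟩

theorem om4_lin (m n : ℤ) (u v : R4) : om4 (lin m n u) (lin m n v) = om4 u v := by
  simp only [om4, lin]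
  linear_combination (u.2.2.1 * v.2.2.2 - u.2.2.2 * v.2.2.1) * sg_sq n

end

end Vale.Agent.P265
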