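import Vale.Agent.P265.S.Pack
import Vale.Agent.P265.S.Per
import Vale.Agent.P265.S.Fix

/-! P265 block S: the Hamiltonian flow upstairs (see `notes/P265.md`). -/

namespace Vale.Agent.P265

open scoped Quaternion ContDiff
open S

theorem exists_flow7 {G : ℝ × R4 → ℍ} (hG : IsPath G) :
    ∃ (c : ℝ) (H : ℝ × E7 → ℝ) (φ : ℝ × E7 → E7), IsFlow7 c H φ := by
  obtain ⟨ε, Ai, Bi, P⟩ := exists_pack hG
  have h0 : ∀ w ∈ Om, w.1 < 1 / 10 ∨ 9 / 10 < w.1 → hh G (Bi w) = 0 := fun w _ h =>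
    hh_end hG (by rwa [P.B1])
  have hs : ContDiffOn ℝ ∞ (fun w => hh G (Bi w)) Om := fun w hw =>
    (contDiffAt_hh hG (P.B2 w hw)).comp_contDiffWithinAt w (P.sB w hw)
  refine ⟨ε⁻¹, per fun w => hh G (Bi w), fun w => BB G ε (Ai w), inv_pos.2 P.pos,
    per_smooth hs h0, fun w hw => ?_, fun τ z hz => BB_mem hG (P.A_mem hz), ?_, ?_,
    fun τ z _ => per_add τ z, fun z hz => ?_, fun τ hτ z b hz => ?_, P.fix hG⟩
  · exact (contDiffAt_BB hG (P.A_mem hw)).comp_contDiffWithinAt w (P.sA w hw)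
  · intro τ z z' hz h
    obtain ⟨m, n, a, b, c, hc, rfl⟩ := rel7_iff.1 h
    simp only [per]
    rw [P.Bi_act hG _ hz m n a b hc, hh_act hG _ _ m n a b hc]
    exact congrArg _ (Prod.ext (P.B1 (_, z)).symm rfl)
  · intro τ z z' hz h
    obtain ⟨m, n, a, b, c, hc, rfl⟩ := rel7_iff.1 h
    refine rel7_iff.2 ⟨m, n, a, b, c, hc, ?_⟩
    rw [P.Ai_act hG _ hz m n a b hc, BB_act hG _ _ m n a b hc]
    exact congrArg _ (congrArg _ (Prod.ext (P.A1 (_, z)).symm rfl))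
  · have h1 := P.Al (0, z) hz
    rw [AA_zero hG] at h1
    rw [h1, BB_zero hG]
  · rw [(per_eq h0 (w := (τ, BB G ε (Ai (τ, z)))) (BB_mem hG (P.A_mem hz)) hτ).fderiv_eq]
    exact P.ode hG τ hz b

end Vale.Agent.P265
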