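import Vale.Agent.P265.L.Iface
import Vale.Agent.P265.L.NilB
import Vale.Agent.P265.L.H1
import Vale.Agent.P265.L.Sph
import Vale.Agent.P265.K.Main
import Vale.Agent.P265.V.Main

/-! P265 block L (owner helper98): Morse inequalities. -/

namespace Vale.Agent.P265

open Set Topology L

theorem L.betti_M {N M : Type} [MetricSpace N] [TopologicalSpace M] {p : R4 → N} (h : IsNil p)
    (e : N × S2 ≃ₜ M) {σt : N → Circle} (hc : Continuous σt)
    (ht : ∀ u, σt (p u) = Circle.exp (2 * Real.pi * u.2.1)) {τ : N → Circle} (hτ : Continuous τ)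
    (hτ1 : ∀ x, σt x = 1 → τ x = 1) :
    ∃ k : ℕ → ℕ, HT N τ (fun n => k n + prev k n) ∧
      HT M (fun x => τ (e.symm x).1)
        fun n => (k n + sh 2 k n) + prev (fun j => k j + sh 2 k j) n := by
  have := h.compact
  obtain ⟨k, hk⟩ := h.betti hc ht hτ hτ1
  refine ⟨k, hk, ?_⟩
  have h1 := (ht_homeo e (τ := fun x => τ x.1) (τ' := fun x => τ (e.symm x).1) (by fun_prop)
    (κ := fun _ => 1) continuous_const (fun x => by simp) _).1 (sph_betti hτ hk)
  convert h1 using 2 with n
  rw [sh_prev]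
  cases n with
  | zero => simp [prev]
  | succ n => simp only [prev]; ring

theorem lowerM : LowerM := by
  intro M _ _ _ _ _ π hc hs he
  obtain ⟨e⟩ := isNil_mk.homeo hc hs he
  letI : MetricSpace M :=
    @TopologicalSpace.metrizableSpaceMetric M _ (Manifold.metrizableSpace (modelWithCornersSelf ℝ E6) M)
  obtain ⟨n, -⟩ := stereo
  have hemb : IsEmbedding fun x : Nil => e (x, n) := e.isEmbedding.comp (isEmbedding_prodMkLeft n)
  letI : MetricSpace Nil := hemb.comapMetricSpace _
  obtain ⟨σs, σt, -, hσ, -, ht⟩ := isNil_mk.sig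
  have := isNil_mk.compact
  have : Nonempty Nil := ⟨Quotient.mk _ 0⟩
  obtain ⟨k, hk, hM⟩ := betti_M isNil_mk e hσ ht hσ fun _ h => h
  obtain ⟨k0, hk0, hM0⟩ := betti_M isNil_mk e hσ ht (τ := 1) continuous_const fun _ _ => rfl
  obtain ⟨l0, l1⟩ := isNil_mk.low ht hk
  have l2 := ht_pos hk0
  simp only [prev] at l0 l1 l2
  refine le_iInf fun d => le_iInf fun F => le_iInf fun hF => le_iInf fun hQ => ?_
  by_cases hfin : (Crit E6 F).Finite
  · obtain ⟨s, s', ee, R, hR, ⟨D⟩⟩ := exists_PG hF hQ (P := hfin.toFinset) hfin.coe_toFinset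
    have h6 : Module.finrank ℝ E6 = 6 := by simp [Module.finrank_prod]
    rw [h6] at D
    have := D.card ee hR (τ := fun x => σt (e.symm x).1) (by fun_prop)
      (κ := fun j => k j + sh 2 k j) (κ0 := fun j => k0 j + sh 2 k0 j)
      (by simp only [sh]; omega) (by simp [sh]; omega) (by simp only [sh]; omega) hM hM0
    rw [hfin.encard_eq_coe_toFinset_card]
    exact_mod_cast this
  · rw [Set.Infinite.encard_eq hfin]
    exact le_top

end Vale.Agent.P265
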