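import Vale.Agent.P265.M.Top
import Vale.Agent.P265.M.Form
import Vale.Agent.P265.M.Flow
import Vale.Agent.P265.L.Iface

/-! P265 block M: the manifold and the descent (see `notes/P265.md`). -/

namespace Vale.Agent.P265

open scoped Manifold ContDiff

theorem descend {c : ℝ} {H : ℝ × E7 → ℝ} {φ : ℝ × E7 → E7} (h : IsFlow7 c H φ) (hL : LowerM) :
    ∃ (M : Type) (_ : TopologicalSpace M) (_ : T2Space M) (_ : CompactSpace M)
      (_ : ConnectedSpace M) (_ : ChartedSpace E6 M) (_ : IsManifold 𝓘(ℝ, E6) ∞ M)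
      (β : TwoForm E6 M) (H : ℝ → M → ℝ) (φ : ℝ → M → M),
      β.IsSymplectic ∧ IsHamFlow β H φ ∧ NondegFix E6 (φ 1) ∧
        (Fix0 φ).encard ≤ 16 ∧ 17 ≤ stableMorse E6 M := by
  obtain ⟨β, h1, hβ⟩ := exists_form h.pos
  obtain ⟨h2, h3, h4⟩ := flow_desc h hβ
  have := t2_Mf
  have := compact_Mf
  exact ⟨Mf, inferInstance, t2_Mf, compact_Mf, connected_Mf, inferInstance, inferInstance, β, _, _,
    h1, h2, h3, h4, hL Mf pr continuousOn_pr (fun m => ⟨lf m, lf_ne m, pr_lf m⟩)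
      fun _ _ => pr_eq⟩

end Vale.Agent.P265
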