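import Vale.Agent.P265.Path
import Vale.Agent.P265.Flow
import Vale.Agent.P265.Lower
import Vale.Agent.P265.Man

/-! P265: assembly. -/

namespace Vale.Agent.P265

open scoped Manifold ContDiff

theorem main :
    ∃ (M : Type) (_ : TopologicalSpace M) (_ : T2Space M) (_ : CompactSpace M)
      (_ : ConnectedSpace M) (_ : ChartedSpace ((ℝ × ℝ × ℝ × ℝ) × ℝ × ℝ) M)
      (_ : IsManifold 𝓘(ℝ, (ℝ × ℝ × ℝ × ℝ) × ℝ × ℝ) ∞ M)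
      (β : TwoForm ((ℝ × ℝ × ℝ × ℝ) × ℝ × ℝ) M) (H : ℝ → M → ℝ) (φ : ℝ → M → M),
      β.IsSymplectic ∧ IsHamFlow β H φ ∧ NondegFix ((ℝ × ℝ × ℝ × ℝ) × ℝ × ℝ) (φ 1) ∧
        (Fix0 φ).encard < stableMorse ((ℝ × ℝ × ℝ × ℝ) × ℝ × ℝ) M := by
  obtain ⟨G, hG⟩ := exists_path
  obtain ⟨c, H, φ, h⟩ := exists_flow7 hG
  obtain ⟨M, i1, i2, i3, i4, i5, i6, β, H', φ', h1, h2, h3, h4, h5⟩ := descend h lowerM
  exact ⟨M, i1, i2, i3, i4, i5, i6, β, H', φ', h1, h2, h3,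
    h4.trans_lt (lt_of_lt_of_le (by norm_num) h5)⟩

end Vale.Agent.P265
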