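import Vale.Agent.P265.U.Main

/-! P265 block U (owner helper48): the path of maps to the unit quaternions. -/

namespace Vale.Agent.P265

open scoped Quaternion

theorem exists_path : ∃ G : ℝ × R4 → ℍ, IsPath G := by
  obtain ⟨ε, h⟩ := exists_isPath0
  exact h.exists_isPath

end Vale.Agent.P265
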